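import Mathlib

/-!
Definitions for the threshold-width statement on `r`-uniform hypergraph properties.
-/

namespace Vale.Agent.P063

/-- The possible edges: the `r`-element subsets of the vertex set `Fin n`. -/
abbrev Edge (n r : ℕ) : Type := {s : Finset (Fin n) // s.card = r}

/-- An `r`-uniform hypergraph on `Fin n`: a point of the cube indexed by the possible edges. -/
abbrev Hyp (n r : ℕ) : Type := Edge n r → Bool

variable {n r : ℕ}

/-- The image of an edge under a permutation of the vertices. -/
def relabel (π : Equiv.Perm (Fin n)) (e : Edge n r) : Edge n r :=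
  ⟨e.1.map π.toEmbedding, (Finset.card_map _).trans e.2⟩

/-- A family of hypergraphs is a hypergraph property: invariant under all vertex permutations. -/
def Invariant (P : Set (Hyp n r)) : Prop :=
  ∀ (π : Equiv.Perm (Fin n)) (x : Hyp n r), (fun e => x (relabel π e)) ∈ P ↔ x ∈ P

/-- Adding edges preserves membership. -/
def Increasing (P : Set (Hyp n r)) : Prop :=
  ∀ x y : Hyp n r, (∀ e, x e = true → y e = true) → x ∈ P → y ∈ P

/-- The probability that the random hypergraph with independent edge probability `p` is in `P`. -/
noncomputable def mu (p : ℝ) (P : Set (Hyp n r)) : ℝ :=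
  ∑ x : Hyp n r, P.indicator (fun x => ∏ e : Edge n r, if x e = true then p else 1 - p) x

/-- The total influence: the sum over edges of the probability that the edge is pivotal. -/
noncomputable def influence (p : ℝ) (P : Set (Hyp n r)) : ℝ :=
  ∑ e : Edge n r,
    mu p {x : Hyp n r | ¬ (Function.update x e true ∈ P ↔ Function.update x e false ∈ P)}

/-- The least edge probability at which `P` has probability at least `a`. -/
noncomputable def threshold (a : ℝ) (P : Set (Hyp n r)) : ℝ :=
  sInf {p : ℝ | p ∈ Set.Icc (0 : ℝ) 1 ∧ a ≤ mu p P}

/-- The threshold width. -/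
noncomputable def width (ε : ℝ) (P : Set (Hyp n r)) : ℝ :=
  threshold (1 - ε) P - threshold ε P

end Vale.Agent.P063
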