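import Mathlib

/-!
Fourier analysis on the `p`-biased discrete cube.
-/

namespace Vale.Agent.P063

open Finset

variable {ι : Type*} [Fintype ι] [DecidableEq ι]

/-- One-coordinate weight. -/
def w1 (p : ℝ) (b : Bool) : ℝ := if b then p else 1 - p

/-- Product weight. -/
def wt (p : ℝ) (x : ι → Bool) : ℝ := ∏ i, w1 p (x i)

/-- Expectation under the `p`-biased measure. -/
def Ex (p : ℝ) (f : (ι → Bool) → ℝ) : ℝ := ∑ x, wt p x * f x

/-- Standard deviation of one bit. -/
noncomputable def sg (p : ℝ) : ℝ := √(p * (1 - p))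

/-- Normalised bit. -/
noncomputable def ph (p : ℝ) (b : Bool) : ℝ := (if b then 1 - p else -p) / sg p

/-- Characters. -/
noncomputable def chi (p : ℝ) (S : Finset ι) (x : ι → Bool) : ℝ := ∏ i ∈ S, ph p (x i)

/-- Fourier coefficients. -/
noncomputable def hat (p : ℝ) (f : (ι → Bool) → ℝ) (S : Finset ι) : ℝ :=
  Ex p (fun x => f x * chi p S x)

variable {p : ℝ}

theorem w1_nonneg (h0 : 0 ≤ p) (h1 : p ≤ 1) (b : Bool) : 0 ≤ w1 p b := by
  cases b <;> simp [w1] <;> linarith

omit [DecidableEq ι] in
theorem wt_nonneg (h0 : 0 ≤ p) (h1 : p ≤ 1) (x : ι → Bool) : 0 ≤ wt p x :=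
  prod_nonneg fun _ _ => w1_nonneg h0 h1 _

theorem Ex_prod (ψ : ι → Bool → ℝ) :
    Ex p (fun x => ∏ i, ψ i (x i)) = ∏ i, (p * ψ i true + (1 - p) * ψ i false) := by
  have := Fintype.prod_sum (fun (i : ι) (b : Bool) => w1 p b * ψ i b)
  simp only [Fintype.sum_bool, w1, if_true, Bool.false_eq_true, if_false] at this
  rw [this]
  simp only [Ex, wt, prod_mul_distrib, w1]

theorem Ex_const (c : ℝ) : Ex (ι := ι) p (fun _ => c) = c := by
  have := Ex_prod (ι := ι) (p := p) (fun _ _ => 1)
  simp only [prod_const_one, mul_one, add_sub_cancel, Ex] at this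
  simp only [Ex, ← sum_mul, this, one_mul]

theorem Ex_add (f g : (ι → Bool) → ℝ) : Ex p (fun x => f x + g x) = Ex p f + Ex p g := by
  simp only [Ex, mul_add, sum_add_distrib]

theorem Ex_sub (f g : (ι → Bool) → ℝ) : Ex p (fun x => f x - g x) = Ex p f - Ex p g := by
  simp only [Ex, mul_sub, sum_sub_distrib]

theorem Ex_const_mul (c : ℝ) (f : (ι → Bool) → ℝ) : Ex p (fun x => c * f x) = c * Ex p f := by
  simp only [Ex, mul_sum]
  exact sum_congr rfl fun x _ => by ring

theorem Ex_sum {κ : Type*} (s : Finset κ) (f : κ → (ι → Bool) → ℝ) :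
    Ex p (fun x => ∑ k ∈ s, f k x) = ∑ k ∈ s, Ex p (f k) := by
  simp only [Ex, mul_sum]
  exact sum_comm

theorem Ex_mono (h0 : 0 ≤ p) (h1 : p ≤ 1) {f g : (ι → Bool) → ℝ} (h : ∀ x, f x ≤ g x) :
    Ex p f ≤ Ex p g :=
  sum_le_sum fun x _ => mul_le_mul_of_nonneg_left (h x) (wt_nonneg h0 h1 x)

theorem Ex_nonneg (h0 : 0 ≤ p) (h1 : p ≤ 1) {f : (ι → Bool) → ℝ} (h : ∀ x, 0 ≤ f x) :
    0 ≤ Ex p f :=
  sum_nonneg fun x _ => mul_nonneg (wt_nonneg h0 h1 x) (h x)

theorem abs_Ex_le (h0 : 0 ≤ p) (h1 : p ≤ 1) (f : (ι → Bool) → ℝ) :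
    |Ex p f| ≤ Ex p (fun x => |f x|) := by
  refine (abs_sum_le_sum_abs _ _).trans (le_of_eq (sum_congr rfl fun x _ => ?_))
  rw [abs_mul, abs_of_nonneg (wt_nonneg h0 h1 x)]

theorem Ex_cs (h0 : 0 ≤ p) (h1 : p ≤ 1) {r f g : (ι → Bool) → ℝ} (hf : ∀ x, 0 ≤ f x)
    (hg : ∀ x, 0 ≤ g x) (h : ∀ x, r x ^ 2 ≤ f x * g x) : Ex p r ^ 2 ≤ Ex p f * Ex p g := by
  refine sum_sq_le_sum_mul_sum_of_sq_le_mul _ (fun x _ => mul_nonneg (wt_nonneg h0 h1 x) (hf x))
    (fun x _ => mul_nonneg (wt_nonneg h0 h1 x) (hg x)) fun x _ => ?_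
  have := mul_le_mul_of_nonneg_left (h x) (sq_nonneg (wt p x))
  calc (wt p x * r x) ^ 2 = wt p x ^ 2 * r x ^ 2 := by ring
    _ ≤ _ := this
    _ = _ := by ring

theorem Ex_comm (F : (ι → Bool) → (ι → Bool) → ℝ) :
    Ex p (fun x => Ex p (fun y => F x y)) = Ex p (fun y => Ex p (fun x => F x y)) := by
  simp only [Ex, mul_sum]
  rw [sum_comm]
  exact sum_congr rfl fun x _ => sum_congr rfl fun y _ => by ring

theorem Ex_mix (K : Finset ι) (G : (ι → Bool) → ℝ) :
    Ex p (fun x => Ex p (fun y => G (K.piecewise x y))) = Ex p G := by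
  let σ : (ι → Bool) × (ι → Bool) → (ι → Bool) × (ι → Bool) :=
    fun q => (K.piecewise q.1 q.2, K.piecewise q.2 q.1)
  have hσ : Function.Involutive σ := by
    rintro ⟨x, y⟩
    simp only [σ, Prod.mk.injEq]
    constructor <;> funext i <;> by_cases hi : i ∈ K <;> simp [Finset.piecewise, hi]
  have hw : ∀ x y : ι → Bool, wt p (K.piecewise x y) * wt p (K.piecewise y x) = wt p x * wt p y := by
    intro x y
    simp only [wt, ← prod_mul_distrib]
    refine prod_congr rfl fun i _ => ?_
    by_cases hi : i ∈ K <;> simp [Finset.piecewise, hi, mul_comm]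
  have h1 : Ex p G = ∑ q : (ι → Bool) × (ι → Bool), wt p q.1 * wt p q.2 * G q.1 := by
    rw [Fintype.sum_prod_type]
    refine sum_congr rfl fun x _ => ?_
    have := Ex_const (ι := ι) (p := p) (wt p x * G x)
    rw [← this]
    exact sum_congr rfl fun y _ => by ring
  rw [h1, ← hσ.bijective.sum_comp, Fintype.sum_prod_type]
  simp only [Ex, mul_sum, σ, hw]
  exact sum_congr rfl fun x _ => sum_congr rfl fun y _ => by ring

theorem Ex_coord (e : ι) (ψ : Bool → ℝ) :
    Ex p (fun y => ψ (y e)) = p * ψ true + (1 - p) * ψ false := by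
  have := Ex_prod (p := p) (fun i b => if i = e then ψ b else 1)
  simp only [prod_ite_eq', mem_univ, if_true] at this
  rw [this, prod_eq_single e (fun i _ hi => by simp [hi]) (by simp)]
  simp

theorem Ex_resample (e : ι) (G : (ι → Bool) → ℝ) :
    Ex p G = Ex p (fun x => p * G (Function.update x e true)
      + (1 - p) * G (Function.update x e false)) := by
  rw [← Ex_mix (univ.erase e) G]
  congr 1
  funext x
  rw [← Ex_coord e (fun b => G (Function.update x e b))]
  congr 1
  funext y
  congr 1
  funext i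
  by_cases hi : i = e
  · subst hi; simp [Finset.piecewise]
  · simp [Finset.piecewise, hi]

theorem Ex_perm (τ : ι ≃ ι) (G : (ι → Bool) → ℝ) : Ex p (fun x => G (x ∘ τ)) = Ex p G := by
  have hw : ∀ x : ι → Bool, wt p (x ∘ τ) = wt p x := fun x =>
    Equiv.prod_comp τ (fun i => w1 p (x i))
  simp only [Ex]
  rw [← (Equiv.arrowCongr τ.symm (Equiv.refl Bool)).sum_comp (fun x => wt p x * G x)]
  refine sum_congr rfl fun x _ => ?_
  have : (Equiv.arrowCongr τ.symm (Equiv.refl Bool)) x = x ∘ τ := by
    funext i; simp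
  rw [this, hw]

section open_interval

variable (h0 : 0 < p) (h1 : p < 1)
include h0 h1

theorem sg_pos : 0 < sg p := Real.sqrt_pos.mpr (mul_pos h0 (by linarith))

theorem sg_sq : sg p ^ 2 = p * (1 - p) := Real.sq_sqrt (mul_pos h0 (by linarith)).le

theorem ph_mean : p * ph p true + (1 - p) * ph p false = 0 := by
  simp only [ph, if_true, Bool.false_eq_true, if_false]
  field_simp
  ring

theorem ph_var : p * (ph p true * ph p true) + (1 - p) * (ph p false * ph p false) = 1 := by
  have := (sg_pos h0 h1).ne'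
  simp only [ph, if_true, Bool.false_eq_true, if_false]
  field_simp
  rw [sg_sq h0 h1]
  ring

theorem Ex_chi_mul (S T : Finset ι) :
    Ex p (fun x => chi p S x * chi p T x) = if S = T then 1 else 0 := by
  have e : ∀ x : ι → Bool, chi p S x * chi p T x
      = ∏ i, ((if i ∈ S then ph p (x i) else 1) * (if i ∈ T then ph p (x i) else 1)) := by
    intro x
    rw [prod_mul_distrib, prod_ite_mem, prod_ite_mem, univ_inter, univ_inter]
    rfl
  simp only [e]
  rw [Ex_prod (fun i b => (if i ∈ S then ph p b else 1) * (if i ∈ T then ph p b else 1))]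
  split_ifs with h
  · subst h
    refine prod_eq_one fun i _ => ?_
    by_cases hi : i ∈ S
    · simp only [hi, if_true]; exact ph_var h0 h1
    · simp [hi]
  · obtain ⟨i, hi⟩ : ∃ i, ¬ (i ∈ S ↔ i ∈ T) := by
      by_contra hc
      push Not at hc
      exact h (Finset.ext hc)
    refine prod_eq_zero (mem_univ i) ?_
    by_cases hS : i ∈ S <;> by_cases hT : i ∈ T
    · exact absurd (iff_of_true hS hT) hi
    · simp only [hS, hT, if_true, if_false, mul_one]; exact ph_mean h0 h1
    · simp only [hS, hT, if_true, if_false, one_mul]; exact ph_mean h0 h1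
    · exact absurd (iff_of_false hS hT) hi

theorem Ex_chi (S : Finset ι) : Ex p (chi p S) = if S = ∅ then 1 else 0 := by
  rw [← Ex_chi_mul h0 h1 S ∅]
  congr 1
  funext x
  simp [chi]

theorem expand (f : (ι → Bool) → ℝ) (x : ι → Bool) : f x = ∑ S, hat p f S * chi p S x := by
  have hs := (sg_pos h0 h1).ne'
  have hq : (1 - p) ≠ 0 := by linarith
  have key : ∀ y : ι → Bool, wt p y * ∑ S : Finset ι, chi p S y * chi p S x
      = if y = x then 1 else 0 := by
    intro y
    have e1 : ∑ S : Finset ι, chi p S y * chi p S x = ∏ i, (1 + ph p (y i) * ph p (x i)) := by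
      rw [prod_one_add, powerset_univ]
      exact sum_congr rfl fun S _ => by simp only [chi, prod_mul_distrib]
    have e2 : ∀ a b : Bool, w1 p a * (1 + ph p a * ph p b) = if a = b then 1 else 0 := by
      intro a b
      cases a <;> cases b <;> simp only [w1, ph, if_true, Bool.false_eq_true, if_false,
        Bool.true_eq_false] <;> field_simp <;> rw [sg_sq h0 h1] <;> ring
    rw [e1, wt, ← prod_mul_distrib]
    simp only [e2]
    split_ifs with h
    · simp [h]
    · obtain ⟨i, hi⟩ := Function.ne_iff.mp h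
      exact prod_eq_zero (mem_univ i) (if_neg hi)
  simp only [hat, Ex, sum_mul]
  rw [sum_comm]
  have : ∀ y : ι → Bool, ∑ S : Finset ι, wt p y * (f y * chi p S y) * chi p S x
      = if y = x then f y else 0 := by
    intro y
    have h2 : ∑ S : Finset ι, wt p y * (f y * chi p S y) * chi p S x
        = f y * (wt p y * ∑ S : Finset ι, chi p S y * chi p S x) := by
      simp only [mul_sum]
      exact sum_congr rfl fun S _ => by ring
    rw [h2, key]
    split_ifs <;> simp
  simp only [this, sum_ite_eq', mem_univ, if_true]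

theorem Ex_lin_mul {κ : Type*} [DecidableEq κ] (F : Finset κ) (φ : κ → Finset ι)
    (hφ : Set.InjOn φ F) (c d : κ → ℝ) :
    Ex p (fun x => (∑ k ∈ F, c k * chi p (φ k) x) * (∑ k ∈ F, d k * chi p (φ k) x))
      = ∑ k ∈ F, c k * d k := by
  simp only [sum_mul_sum]
  rw [Ex_sum]
  refine sum_congr rfl fun k hk => ?_
  rw [Ex_sum]
  have : ∀ l ∈ F, Ex p (fun x => c k * chi p (φ k) x * (d l * chi p (φ l) x))
      = if k = l then c k * d l else 0 := by
    intro l hl
    have e : (fun x => c k * chi p (φ k) x * (d l * chi p (φ l) x))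
        = fun x => (c k * d l) * (chi p (φ k) x * chi p (φ l) x) := by funext x; ring
    rw [e, Ex_const_mul, Ex_chi_mul h0 h1]
    by_cases hkl : k = l
    · simp [hkl]
    · rw [if_neg (fun h => hkl (hφ hk hl h)), if_neg hkl, mul_zero]
  rw [sum_congr rfl this, sum_ite_eq]
  simp [hk]

theorem parseval (f : (ι → Bool) → ℝ) : Ex p (fun x => f x ^ 2) = ∑ S, hat p f S ^ 2 := by
  have := Ex_lin_mul h0 h1 (univ : Finset (Finset ι)) id (Set.injOn_id _) (hat p f) (hat p f)
  simp only [id, ← expand h0 h1 f] at this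
  simp only [sq]
  exact this

theorem hat_lin {κ : Type*} (F : Finset κ) (φ : κ → Finset ι) (c : κ → ℝ) (U : Finset ι) :
    hat p (fun x => ∑ k ∈ F, c k * chi p (φ k) x) U = ∑ k ∈ F with φ k = U, c k := by
  simp only [hat, sum_mul]
  rw [Ex_sum, sum_filter]
  refine sum_congr rfl fun k _ => ?_
  have e : (fun x => c k * chi p (φ k) x * chi p U x)
      = fun x => c k * (chi p (φ k) x * chi p U x) := by funext x; ring
  rw [e, Ex_const_mul, Ex_chi_mul h0 h1]
  split_ifs <;> simp

end open_interval

omit [Fintype ι] in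
theorem chi_piecewise (K T : Finset ι) (x y : ι → Bool) :
    chi p T (K.piecewise x y) = chi p (T ∩ K) x * chi p (T \ K) y := by
  simp only [chi]
  rw [← prod_piecewise T K (fun i => ph p (x i)) (fun i => ph p (y i))]
  refine prod_congr rfl fun i _ => ?_
  by_cases hi : i ∈ K <;> simp [Finset.piecewise, hi]

omit [Fintype ι] in
theorem chi_update_of_notMem {T : Finset ι} {e : ι} (he : e ∉ T) (x : ι → Bool) (b : Bool) :
    chi p T (Function.update x e b) = chi p T x :=
  prod_congr rfl fun i hi => by rw [Function.update_of_ne (ne_of_mem_of_not_mem hi he)]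

omit [Fintype ι] in
theorem chi_insert {T : Finset ι} {e : ι} (he : e ∉ T) (x : ι → Bool) :
    chi p (insert e T) x = ph p (x e) * chi p T x := prod_insert he

theorem hat_empty (f : (ι → Bool) → ℝ) : hat p f ∅ = Ex p f := by simp [hat, chi]

theorem hat_perm (τ : ι ≃ ι) {g : (ι → Bool) → ℝ} (hg : ∀ y, g (y ∘ τ) = g y) (U : Finset ι) :
    hat p g (U.map τ.toEmbedding) = hat p g U := by
  rw [hat, hat, ← Ex_perm τ (fun x => g x * chi p U x)]
  congr 1
  funext x
  rw [hg]
  simp [chi, prod_map]

/-- Discrete derivative. -/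
def dlt (e : ι) (f : (ι → Bool) → ℝ) (x : ι → Bool) : ℝ :=
  f (Function.update x e true) - f (Function.update x e false)

/-- Conditional expectation given the coordinates in `K`. -/
def cond (p : ℝ) (K : Finset ι) (g : (ι → Bool) → ℝ) (x : ι → Bool) : ℝ :=
  Ex p (fun y => g (K.piecewise x y))

section open_interval

variable (h0 : 0 < p) (h1 : p < 1)
include h0 h1

theorem energy (f : (ι → Bool) → ℝ) :
    sg p ^ 2 * ∑ e, Ex p (fun x => dlt e f x ^ 2) = ∑ T : Finset ι, T.card * hat p f T ^ 2 := by
  have hs := (sg_pos h0 h1).ne'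
  have h2 : ∀ e, sg p ^ 2 * Ex p (fun x => dlt e f x ^ 2)
      = ∑ T : Finset ι, if e ∈ T then hat p f T ^ 2 else 0 := by
    intro e
    have e1 : ∀ x, dlt e f x = ∑ T ∈ univ.filter (fun T : Finset ι => e ∈ T),
        (hat p f T / sg p) * chi p (T.erase e) x := by
      intro x
      rw [dlt, expand h0 h1 f (Function.update x e true), expand h0 h1 f (Function.update x e false),
        ← sum_sub_distrib, sum_filter]
      refine sum_congr rfl fun T _ => ?_
      split_ifs with he
      · have : ∀ b, chi p T (Function.update x e b) = ph p b * chi p (T.erase e) x := by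
          intro b
          conv_lhs => rw [← insert_erase he]
          rw [chi_insert (notMem_erase e T), chi_update_of_notMem (notMem_erase e T),
            Function.update_self]
        rw [this, this]
        simp only [ph, if_true, Bool.false_eq_true, if_false]
        field_simp
        ring
      · rw [chi_update_of_notMem he, chi_update_of_notMem he, sub_self]
    simp only [e1, sq]
    rw [Ex_lin_mul h0 h1 _ (fun T : Finset ι => T.erase e) (fun T hT T' hT' h => by
      have a1 : e ∈ T := by simpa using hT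
      have a2 : e ∈ T' := by simpa using hT'
      rw [← insert_erase a1, ← insert_erase a2]
      exact congrArg _ h), mul_sum, sum_filter]
    refine sum_congr rfl fun T _ => ?_
    split_ifs
    · field_simp
    · rfl
  rw [mul_sum]
  simp only [h2]
  rw [sum_comm]
  refine sum_congr rfl fun T _ => ?_
  rw [sum_ite_mem, univ_inter, sum_const, nsmul_eq_mul]

theorem cond_expand (K : Finset ι) (g : (ι → Bool) → ℝ) (x : ι → Bool) :
    cond p K g x = ∑ U ∈ K.powerset, hat p g U * chi p U x := by
  have e1 : ∀ y, g (K.piecewise x y)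
      = ∑ T : Finset ι, (hat p g T * chi p (T ∩ K) x) * chi p (T \ K) y := by
    intro y
    rw [expand h0 h1 g]
    exact sum_congr rfl fun T _ => by rw [chi_piecewise, mul_assoc]
  simp only [cond, e1]
  rw [Ex_sum]
  have e2 : K.powerset = univ.filter (fun T : Finset ι => T ⊆ K) := by ext T; simp
  rw [e2, sum_filter]
  refine sum_congr rfl fun T _ => ?_
  rw [Ex_const_mul, Ex_chi h0 h1]
  by_cases hT : T ⊆ K
  · rw [if_pos (sdiff_eq_empty_iff_subset.mpr hT), if_pos hT, inter_eq_left.mpr hT, mul_one]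
  · rw [if_neg (fun h => hT (sdiff_eq_empty_iff_subset.mp h)), if_neg hT, mul_zero]

theorem l1_poincare (K : Finset ι) (g : (ι → Bool) → ℝ) :
    Ex p (fun x => |cond p K g x - Ex p g|)
      ≤ ∑ e ∈ K, 2 * sg p ^ 2 * Ex p (fun x => |dlt e g x|) := by
  induction K using Finset.induction_on with
  | empty => simp [cond, Ex_const]
  | insert e K he ih =>
    rw [sum_insert he]
    have a1 : ∀ x, cond p K g x = cond p (insert e K) (fun u => p * g (Function.update u e true)
        + (1 - p) * g (Function.update u e false)) x := by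
      intro x
      rw [cond, cond, Ex_resample e]
      congr 1
      funext y
      have : ∀ b, K.piecewise x (Function.update y e b)
          = Function.update ((insert e K).piecewise x y) e b := by
        intro b
        funext i
        by_cases hi : i = e
        · subst hi; simp [Finset.piecewise, he]
        · by_cases hK : i ∈ K <;> simp [Finset.piecewise, hi, hK]
      rw [this, this]
    have a2 : ∀ x, |cond p (insert e K) g x - Ex p g|
        ≤ cond p (insert e K) (fun u => |g u - (p * g (Function.update u e true)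
          + (1 - p) * g (Function.update u e false))|) x + |cond p K g x - Ex p g| := by
      intro x
      refine (abs_sub_le _ (cond p K g x) _).trans (add_le_add_left ?_ _)
      rw [a1 x, cond, cond, ← Ex_sub]
      exact abs_Ex_le h0.le h1.le _
    refine (Ex_mono h0.le h1.le a2).trans ?_
    rw [Ex_add]
    refine add_le_add (le_of_eq ?_) ih
    unfold cond
    rw [Ex_mix (insert e K) (fun u => |g u - (p * g (Function.update u e true)
          + (1 - p) * g (Function.update u e false))|), Ex_resample e, ← Ex_const_mul]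
    congr 1
    funext x
    simp only [Function.update_idem, dlt, sg_sq h0 h1]
    set a := g (Function.update x e true)
    set b := g (Function.update x e false)
    have b1 : a - (p * a + (1 - p) * b) = (1 - p) * (a - b) := by ring
    have b2 : b - (p * a + (1 - p) * b) = -p * (a - b) := by ring
    rw [b1, b2, abs_mul, abs_mul, abs_neg, abs_of_pos h0, abs_of_pos (by linarith : 0 < 1 - p)]
    ring

theorem restrict_sq (R : Finset ι) (f : (ι → Bool) → ℝ) (U : Finset ι) :
    Ex p (fun z => hat p (fun y => f (R.piecewise z y)) U ^ 2)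
      = ∑ T : Finset ι with T \ R = U, hat p f T ^ 2 := by
  have e1 : ∀ z, hat p (fun y => f (R.piecewise z y)) U
      = ∑ T : Finset ι with T \ R = U, hat p f T * chi p (T ∩ R) z := by
    intro z
    have : (fun y => f (R.piecewise z y))
        = fun y => ∑ T : Finset ι, (hat p f T * chi p (T ∩ R) z) * chi p (T \ R) y := by
      funext y
      rw [expand h0 h1 f]
      exact sum_congr rfl fun T _ => by rw [chi_piecewise, mul_assoc]
    rw [this, hat_lin h0 h1]
  simp only [e1, sq]
  refine Ex_lin_mul h0 h1 _ (fun T : Finset ι => T ∩ R) (fun T hT T' hT' h => ?_) _ _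
  have a1 : T \ R = U := by simpa using hT
  have a2 : T' \ R = U := by simpa using hT'
  have h' : T ∩ R = T' ∩ R := h
  rw [← sdiff_union_inter T R, ← sdiff_union_inter T' R, a1, a2, h']

omit h0 h1 in
theorem restrict_dlt (R : Finset ι) (f : (ι → Bool) → ℝ) {e : ι} (he : e ∉ R) :
    Ex p (fun z => Ex p (fun y => |dlt e (fun y => f (R.piecewise z y)) y|))
      = Ex p (fun x => |dlt e f x|) := by
  rw [← Ex_mix R (fun x => |dlt e f x|)]
  congr 1
  funext z
  congr 1
  funext y
  have : ∀ b, R.piecewise z (Function.update y e b) = Function.update (R.piecewise z y) e b := by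
    intro b
    funext i
    by_cases hi : i = e
    · subst hi; simp [Finset.piecewise, he]
    · by_cases hK : i ∈ R <;> simp [Finset.piecewise, hi, hK]
  simp only [dlt, this]

theorem point4 (a b : ℝ) :
    p * (a + ph p true * b) ^ 4 + (1 - p) * (a + ph p false * b) ^ 4
      ≤ a ^ 4 + 8 * (a ^ 2 * b ^ 2) + 3 / sg p ^ 2 * b ^ 4 := by
  have hs := sg_pos h0 h1
  have hs2 := sg_sq h0 h1
  set c := b / sg p with hc
  have hb : b = c * sg p := by rw [hc]; field_simp
  have e1 : ph p true * b = (1 - p) * c := by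
    simp only [ph, if_true, hc]; field_simp
  have e2 : ph p false * b = -p * c := by
    simp only [ph, Bool.false_eq_true, if_false, hc]; field_simp
  rw [e1, e2]
  have e3 : 3 / sg p ^ 2 * b ^ 4 = 3 * (p * (1 - p)) * c ^ 4 := by
    rw [← hs2, hb]; field_simp
  have e4 : b ^ 2 = (p * (1 - p)) * c ^ 2 := by rw [hb, ← hs2]; ring
  rw [e3, e4]
  have hq : 0 < 1 - p := by linarith
  have hpq : 0 < p * (1 - p) := mul_pos h0 hq
  have e5 : a ^ 4 + 8 * (a ^ 2 * (p * (1 - p) * c ^ 2)) + 3 * (p * (1 - p)) * c ^ 4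
      - (p * (a + (1 - p) * c) ^ 4 + (1 - p) * (a + -p * c) ^ 4)
      = (p * (1 - p)) * (2 * (a * c - (1 - 2 * p) * c ^ 2) ^ 2
        + 11 * (p * (1 - p)) * c ^ 4) := by ring
  have e6 : 0 ≤ (p * (1 - p)) * (2 * (a * c - (1 - 2 * p) * c ^ 2) ^ 2
        + 11 * (p * (1 - p)) * c ^ 4) := by positivity
  linarith

theorem four_le_gamma : 8 ≤ 4 / sg p := by
  have hs := sg_pos h0 h1
  rw [le_div_iff₀ hs]
  have := sg_sq h0 h1
  nlinarith [sq_nonneg (1 - 2 * p), sq_nonneg (1 - 2 * sg p)]

theorem hyper (K : Finset ι) (c : Finset ι → ℝ) :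
    Ex p (fun x => (∑ U ∈ K.powerset, c U * chi p U x) ^ 4)
      ≤ (∑ U ∈ K.powerset, (4 / sg p) ^ U.card * c U ^ 2) ^ 2 := by
  have hs := sg_pos h0 h1
  induction K using Finset.induction_on generalizing c with
  | empty => simp [chi, Ex_const]; exact le_of_eq (by ring)
  | insert e K he ih =>
    have hne : ∀ U ∈ K.powerset, e ∉ U := fun U hU h => he (mem_powerset.mp hU h)
    set H₀ : (ι → Bool) → ℝ := fun x => ∑ U ∈ K.powerset, c U * chi p U x with hH₀
    set H₁ : (ι → Bool) → ℝ := fun x => ∑ U ∈ K.powerset, c (insert e U) * chi p U x with hH₁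
    set A := ∑ U ∈ K.powerset, (4 / sg p) ^ U.card * c U ^ 2 with hA
    set B := ∑ U ∈ K.powerset, (4 / sg p) ^ U.card * c (insert e U) ^ 2 with hB
    have hA0 : 0 ≤ A := sum_nonneg fun _ _ => by positivity
    have hB0 : 0 ≤ B := sum_nonneg fun _ _ => by positivity
    have i0 : Ex p (fun x => H₀ x ^ 4) ≤ A ^ 2 := ih c
    have i1 : Ex p (fun x => H₁ x ^ 4) ≤ B ^ 2 := ih (fun U => c (insert e U))
    have e1 : ∀ x b, ∑ U ∈ (insert e K).powerset, c U * chi p U (Function.update x e b)
        = H₀ x + ph p b * H₁ x := by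
      intro x b
      rw [sum_powerset_insert he, hH₀, hH₁, mul_sum]
      congr 1
      · exact sum_congr rfl fun U hU => by rw [chi_update_of_notMem (hne U hU)]
      · exact sum_congr rfl fun U hU => by
          rw [chi_insert (hne U hU), chi_update_of_notMem (hne U hU), Function.update_self]; ring
    have e2 : ∑ U ∈ (insert e K).powerset, (4 / sg p) ^ U.card * c U ^ 2
        = A + 4 / sg p * B := by
      rw [sum_powerset_insert he, hA, hB, mul_sum]
      congr 1
      exact sum_congr rfl fun U hU => by rw [card_insert_of_notMem (hne U hU)]; ring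
    rw [e2, Ex_resample e]
    simp only [e1]
    refine (Ex_mono h0.le h1.le fun x => point4 h0 h1 (H₀ x) (H₁ x)).trans ?_
    rw [Ex_add, Ex_add, Ex_const_mul, Ex_const_mul]
    have cs := Ex_cs h0.le h1.le (r := fun x => H₀ x ^ 2 * H₁ x ^ 2) (f := fun x => H₀ x ^ 4)
      (g := fun x => H₁ x ^ 4) (fun x => by positivity) (fun x => by positivity)
      (fun x => le_of_eq (by ring))
    have cs2 : Ex p (fun x => H₀ x ^ 2 * H₁ x ^ 2) ≤ A * B := by
      refine (abs_le_of_sq_le_sq' (cs.trans ?_) (mul_nonneg hA0 hB0)).2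
      rw [mul_pow]
      exact mul_le_mul i0 i1 (Ex_nonneg h0.le h1.le fun x => by positivity) (sq_nonneg _)
    have g1 := four_le_gamma h0 h1
    have g2 : 3 / sg p ^ 2 ≤ (4 / sg p) ^ 2 := by
      rw [div_pow]
      exact div_le_div_of_nonneg_right (by norm_num) (by positivity)
    have g3 : 3 / sg p ^ 2 * Ex p (fun x => H₁ x ^ 4) ≤ (4 / sg p) ^ 2 * B ^ 2 :=
      mul_le_mul g2 i1 (Ex_nonneg h0.le h1.le fun x => by positivity) (sq_nonneg _)
    have g4 := mul_le_mul_of_nonneg_right g1 (mul_nonneg hA0 hB0)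
    nlinarith [mul_nonneg hA0 hB0]

end open_interval

end Vale.Agent.P063
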