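import Vale.Agent.P063.Star
import Vale.Agent.P063.Defs

/-!
Fourier weight of vertex-symmetric functions of hypergraphs.
-/

namespace Vale.Agent.P063

open Finset

variable {n r : ℕ} {p : ℝ}

/-- Relabelling as a permutation of the edges. -/
def relabelEquiv (π : Equiv.Perm (Fin n)) : Edge n r ≃ Edge n r where
  toFun := relabel π
  invFun := relabel π.symm
  left_inv e := Subtype.ext (by simp [relabel, map_map])
  right_inv e := Subtype.ext (by simp [relabel, map_map])

/-- Degree of a vertex in an edge set. -/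
def deg (T : Finset (Edge n r)) (v : Fin n) : ℕ := (T.filter fun e => v ∈ e.1).card

/-- Vertices covered by an edge set. -/
def verts (T : Finset (Edge n r)) : Finset (Fin n) := T.biUnion fun e => e.1

theorem card_verts_le (T : Finset (Edge n r)) : (verts T).card ≤ r * T.card := by
  refine card_biUnion_le.trans (le_of_eq ?_)
  rw [sum_congr rfl (fun e _ => e.2), sum_const, smul_eq_mul, mul_comm]

theorem sum_deg_le (T : Finset (Edge n r)) : ∑ v ∈ verts T, deg T v ≤ r * T.card := by
  simp only [deg, card_filter]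
  rw [sum_comm]
  calc _ ≤ ∑ e ∈ T, r := by
        refine sum_le_sum fun e _ => ?_
        rw [← card_filter]
        refine le_trans (card_le_card fun v hv => (mem_filter.mp hv).2) (le_of_eq e.2)
    _ = _ := by rw [sum_const, smul_eq_mul, mul_comm]

theorem deg_le_pow (T : Finset (Edge n r)) (v : Fin n) :
    deg T v ≤ (verts T).card ^ (r - 1) := by
  refine le_trans ?_ (Nat.choose_le_pow _ _)
  rw [← card_powersetCard]
  refine card_le_card_of_injOn (fun e => e.1.erase v) (fun e he => ?_) (fun e he e' he' h => ?_)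
  · have he' := mem_filter.mp (mem_coe.mp he)
    refine mem_coe.mpr (mem_powersetCard.mpr ⟨?_, ?_⟩)
    · exact (erase_subset _ _).trans (subset_biUnion_of_mem (fun e : Edge n r => e.1) he'.1)
    · rw [card_erase_of_mem he'.2, e.2]
  · have a1 := (mem_filter.mp (mem_coe.mp he)).2
    have a2 := (mem_filter.mp (mem_coe.mp he')).2
    refine Subtype.ext ?_
    rw [← insert_erase a1, ← insert_erase a2]
    exact congrArg _ h

theorem min_degree (hr : 2 ≤ r) (T : Finset (Edge n r)) (hT : T ≠ ∅) (m : ℕ)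
    (h : (r : ℝ) * T.card < ((m : ℝ) + 1) ^ ((r : ℝ) / (r - 1))) :
    ∃ v, 1 ≤ deg T v ∧ deg T v ≤ m := by
  by_contra hc
  push Not at hc
  have h1 : ∀ v ∈ verts T, m + 1 ≤ deg T v := by
    intro v hv
    obtain ⟨e, he, hv⟩ := mem_biUnion.mp hv
    exact hc v (card_pos.mpr ⟨e, mem_filter.mpr ⟨he, hv⟩⟩)
  obtain ⟨e, he⟩ := nonempty_iff_ne_empty.mpr hT
  obtain ⟨v, hv⟩ : e.1.Nonempty := card_pos.mp (by rw [e.2]; omega)
  have h2 : m + 1 ≤ (verts T).card ^ (r - 1) :=
    (h1 v (mem_biUnion.mpr ⟨e, he, hv⟩)).trans (deg_le_pow T v)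
  have h3 : (verts T).card * (m + 1) ≤ r * T.card := by
    refine le_trans ?_ (sum_deg_le T)
    rw [← smul_eq_mul]
    exact card_nsmul_le_sum _ _ _ h1
  have h4 : ((m : ℝ) + 1) ≤ ((verts T).card : ℝ) ^ (r - 1) := by exact_mod_cast h2
  have h5 : ((verts T).card : ℝ) * (m + 1) ≤ r * T.card := by exact_mod_cast h3
  have hr1 : (1 : ℝ) ≤ (r : ℝ) - 1 := by
    have : (2 : ℝ) ≤ r := by exact_mod_cast hr
    linarith
  have hm : (0 : ℝ) < (m : ℝ) + 1 := by positivity
  have h6 : ((m : ℝ) + 1) ^ (((r - 1 : ℕ) : ℝ)⁻¹) ≤ (verts T).card := by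
    refine (Real.rpow_le_rpow hm.le h4 (by positivity)).trans (le_of_eq ?_)
    exact Real.pow_rpow_inv_natCast (by positivity) (by omega)
  have h7 : (r : ℝ) / (r - 1) = ((r - 1 : ℕ) : ℝ)⁻¹ + 1 := by
    rw [Nat.cast_sub (by omega), Nat.cast_one]
    field_simp
    ring
  rw [h7, Real.rpow_add hm, Real.rpow_one] at h
  nlinarith

theorem count_sets {N j : ℕ} (Z : Finset (Fin (N + 2))) (v : Fin (N + 2)) (hv : v ∉ Z)
    (h : 2 * Z.card * (j + 1) ≤ N + 1) :
    (N + 1).choose (j + 1)
      ≤ 2 * ((powersetCard (j + 2) univ).filter fun A => v ∈ A ∧ Disjoint Z A).card := by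
  set G := (powersetCard (j + 2) univ).filter fun A : Finset (Fin (N + 2)) => v ∈ A ∧ Disjoint Z A
  have e1 : ((powersetCard (j + 2) univ).filter fun A => ({v} : Finset (Fin (N + 2))) ⊆ A).card
      = (N + 1).choose (j + 1) := by
    rw [card_filter_powersetCard_subset _ _ _ (subset_univ _) (by simp)]
    simp
  have e2 : ∀ u ∈ Z, ((powersetCard (j + 2) univ).filter
      fun A => ({v, u} : Finset (Fin (N + 2))) ⊆ A).card = N.choose j := by
    intro u hu
    have : ({v, u} : Finset (Fin (N + 2))).card = 2 := card_pair (fun h => hv (h ▸ hu))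
    rw [card_filter_powersetCard_subset _ _ _ (subset_univ _) (by omega), this]
    simp
  have e3 : ((powersetCard (j + 2) univ).filter fun A => ({v} : Finset (Fin (N + 2))) ⊆ A)
      ⊆ G ∪ Z.biUnion fun u => (powersetCard (j + 2) univ).filter
        fun A => ({v, u} : Finset (Fin (N + 2))) ⊆ A := by
    intro A hA
    rw [mem_filter, singleton_subset_iff] at hA
    by_cases hd : Disjoint Z A
    · exact mem_union_left _ (mem_filter.mpr ⟨hA.1, hA.2, hd⟩)
    · obtain ⟨u, hu, huA⟩ := not_disjoint_iff.mp hd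
      refine mem_union_right _ (mem_biUnion.mpr ⟨u, hu, mem_filter.mpr ⟨hA.1, ?_⟩⟩)
      rw [insert_subset_iff, singleton_subset_iff]
      exact ⟨hA.2, huA⟩
  have e4 : (N + 1).choose (j + 1) ≤ G.card + Z.card * N.choose j := by
    rw [← e1]
    refine (card_le_card e3).trans ((card_union_le _ _).trans (Nat.add_le_add_left ?_ _))
    refine card_biUnion_le.trans (le_of_eq ?_)
    rw [sum_congr rfl e2, sum_const, smul_eq_mul]
  have e5 := Nat.add_one_mul_choose_eq N j
  have e6 : 2 * (Z.card * N.choose j) ≤ (N + 1).choose (j + 1) := by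
    refine Nat.le_of_mul_le_mul_left ?_ (Nat.succ_pos N)
    calc (N + 1) * (2 * (Z.card * N.choose j)) = 2 * Z.card * ((N + 1) * N.choose j) := by ring
      _ = (2 * Z.card * (j + 1)) * (N + 1).choose (j + 1) := by rw [e5]; ring
      _ ≤ _ := Nat.mul_le_mul_right _ h
  omega

section open_interval

variable (h0 : 0 < p) (h1 : p < 1)
include h0 h1

theorem set_bound (f : Hyp n r → ℝ) (hf : ∀ x, f x ^ 2 ≤ 1)
    (hinv : ∀ π x, f (fun e => x (relabel π e)) = f x) (A : Finset (Fin n)) (m : ℕ) {w : ℝ}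
    (hw0 : 0 ≤ w) (hw : 1 ≤ w ^ 2 * A.card) :
    ∑ T : Finset (Edge n r), (if ∃ v, (v ∈ A ∧ Disjoint ((verts T).erase v) A) ∧
        1 ≤ deg T v ∧ deg T v ≤ m then hat p f T ^ 2 else 0)
      ≤ (4 / sg p) ^ m * w * (2 * sg p ^ 2 * ∑ e, Ex p (fun x => |dlt e f x|)) := by
  set R : Finset (Edge n r) := univ.filter fun e => Disjoint e.1 A with hR
  set St : Fin n → Finset (Edge n r) := fun a => univ.filter fun e => e.1 ∩ A = {a} with hSt
  have mR : ∀ e, e ∈ R ↔ Disjoint e.1 A := fun e => by simp [hR]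
  have mS : ∀ a e, e ∈ St a ↔ e.1 ∩ A = {a} := fun a e => by simp [hSt]
  refine le_trans ?_ (restrict_bound h0 h1 f hf R A St ?_ ?_ ?_ m hw0 hw)
  · rw [sum_comm]
    refine sum_le_sum fun T _ => ?_
    split_ifs with h
    · obtain ⟨v, ⟨hv, hd⟩, d1, d2⟩ := h
      have e1 : T \ R = T.filter fun e => v ∈ e.1 := by
        ext e
        rw [mem_sdiff, mR, mem_filter]
        refine and_congr_right fun he => ⟨fun h => ?_, fun h hd => disjoint_left.mp hd h hv⟩
        obtain ⟨u, hu, huA⟩ := not_disjoint_iff.mp h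
        by_contra hne
        exact disjoint_left.mp hd (mem_erase.mpr ⟨fun h => hne (h ▸ hu),
          mem_biUnion.mpr ⟨e, he, hu⟩⟩) huA
      refine le_trans (le_of_eq ?_) (single_le_sum (f := fun a => if T \ R ⊆ St a ∧ T \ R ≠ ∅ ∧
        (T \ R).card ≤ m then hat p f T ^ 2 else 0) (fun a _ => by
          split_ifs <;> positivity) hv)
      rw [if_pos]
      rw [e1]
      refine ⟨fun e he => ?_, nonempty_iff_ne_empty.mp (card_pos.mp d1), d2⟩
      rw [mem_filter] at he
      rw [mS, eq_singleton_iff_unique_mem]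
      refine ⟨mem_inter.mpr ⟨he.2, hv⟩, fun u hu => ?_⟩
      by_contra hne
      exact disjoint_left.mp hd (mem_erase.mpr ⟨hne,
          mem_biUnion.mpr ⟨e, he.1, (mem_inter.mp hu).1⟩⟩) (mem_inter.mp hu).2
    · exact sum_nonneg fun a _ => by split_ifs <;> positivity
  · intro a _ a' _ hne
    refine disjoint_left.mpr fun e he he' => hne ?_
    rw [mS] at he he'
    exact singleton_injective (he.symm.trans he')
  · intro a _ e he h
    rw [mS] at he
    rw [mR, disjoint_iff_inter_eq_empty, he] at h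
    exact singleton_ne_empty a h
  · intro a ha a' ha'
    have hA : ∀ u, Equiv.swap a a' u ∈ A ↔ u ∈ A := by
      intro u
      rw [Equiv.swap_apply_def]
      split_ifs with b1 b2
      · simp [b1, ha, ha']
      · simp [b2, ha, ha']
      · rfl
    have hmem : ∀ (e : Edge n r) u, u ∈ (relabel (Equiv.swap a a') e).1
        ↔ Equiv.swap a a' u ∈ e.1 := by
      intro e u
      simp [relabel, mem_map_equiv]
    refine ⟨relabelEquiv (Equiv.swap a a'), fun y => hinv _ y, fun e he => ?_, ?_⟩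
    · rw [mR] at he
      refine Subtype.ext ?_
      ext u
      refine (hmem e u).trans ?_
      by_cases hu : u ∈ A
      · exact iff_of_false (disjoint_right.mp he ((hA u).mpr hu)) (disjoint_right.mp he hu)
      · rw [Equiv.swap_apply_of_ne_of_ne (fun h : u = a => hu (h ▸ ha))
          (fun h : u = a' => hu (h ▸ ha'))]
    · ext e
      rw [mem_map_equiv, mS, mS]
      have : ((relabelEquiv (Equiv.swap a a')).symm e) = relabel (Equiv.swap a a') e := by
        simp [relabelEquiv]
      rw [this]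
      simp only [Finset.ext_iff, mem_inter, mem_singleton, hmem]
      constructor
      · intro h u
        have := h (Equiv.swap a a' u)
        rw [Equiv.swap_apply_self, hA, Equiv.swap_apply_eq_iff, Equiv.swap_apply_left] at this
        exact this
      · intro h u
        have := h (Equiv.swap a a' u)
        rw [hA, Equiv.swap_apply_eq_iff, Equiv.swap_apply_right] at this
        exact this

theorem low_bound (f : Hyp n r → ℝ) (hf : ∀ x, f x ^ 2 ≤ 1)
    (hinv : ∀ π x, f (fun e => x (relabel π e)) = f x) (m k : ℕ) {w y : ℝ}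
    (hw0 : 0 ≤ w) (hw : 1 ≤ w ^ 2 * k) (hk : 2 ≤ k) (hkn : k ≤ n)
    (hy : 2 * y * (k - 1) ≤ n - 1) (F : Finset (Finset (Edge n r)))
    (hF : ∀ T ∈ F, ((verts T).card : ℝ) ≤ y ∧ ∃ v, 1 ≤ deg T v ∧ deg T v ≤ m) :
    (∑ T ∈ F, hat p f T ^ 2) * k
      ≤ 2 * n * ((4 / sg p) ^ m * w * (2 * sg p ^ 2 * ∑ e, Ex p (fun x => |dlt e f x|))) := by
  obtain ⟨j, rfl⟩ : ∃ j, k = j + 2 := ⟨k - 2, by omega⟩
  obtain ⟨N, rfl⟩ : ∃ N, n = N + 2 := ⟨n - 2, by omega⟩
  set B := (4 / sg p) ^ m * w * (2 * sg p ^ 2 * ∑ e, Ex p (fun x => |dlt e f x|)) with hB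
  have a1 : ∑ A ∈ powersetCard (j + 2) (univ : Finset (Fin (N + 2))),
      ∑ T : Finset (Edge (N + 2) r), (if ∃ v, (v ∈ A ∧ Disjoint ((verts T).erase v) A) ∧
        1 ≤ deg T v ∧ deg T v ≤ m then hat p f T ^ 2 else 0)
      ≤ ((N + 2).choose (j + 2) : ℝ) * B := by
    refine (sum_le_sum (g := fun _ => B) fun A hA => set_bound h0 h1 f hf hinv A m hw0 ?_).trans
      (le_of_eq ?_)
    · rw [(mem_powersetCard.mp hA).2]; exact hw
    · simp
  rw [sum_comm] at a1
  have a2 : (∑ T ∈ F, hat p f T ^ 2) * ((N + 1).choose (j + 1) : ℝ)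
      ≤ 2 * (((N + 2).choose (j + 2) : ℝ) * B) := by
    refine le_trans ?_ (mul_le_mul_of_nonneg_left a1 (by norm_num))
    rw [sum_mul, mul_sum]
    refine le_trans (sum_le_sum fun T hT => ?_) (sum_le_sum_of_subset_of_nonneg (subset_univ F)
      fun T _ _ => mul_nonneg (by norm_num) (sum_nonneg fun A _ => by split_ifs <;> positivity))
    obtain ⟨b1, v, b2⟩ := hF T hT
    have b3 : 2 * ((verts T).erase v).card * (j + 1) ≤ N + 1 := by
      have c1 : (((verts T).erase v).card : ℝ) ≤ y :=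
        le_trans (by exact_mod_cast card_erase_le) b1
      have c2 : (2 : ℝ) * ((verts T).erase v).card * (j + 1) ≤ N + 1 := by
        push_cast at hy
        have : (2 : ℝ) * ((verts T).erase v).card * (j + 1) ≤ 2 * y * (j + 1) := by gcongr
        linarith
      exact_mod_cast c2
    have b4 := count_sets ((verts T).erase v) v (notMem_erase v _) b3
    rw [← sum_filter, sum_const, nsmul_eq_mul, ← mul_assoc, mul_comm]
    refine mul_le_mul_of_nonneg_right ?_ (sq_nonneg _)
    have b5 := b4.trans (Nat.mul_le_mul_left 2 (card_le_card (monotone_filter_right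
      (powersetCard (j + 2) univ) (q := fun A => ∃ v, (v ∈ A ∧ Disjoint ((verts T).erase v) A) ∧
        1 ≤ deg T v ∧ deg T v ≤ m) fun A _ hA => ⟨v, hA, b2⟩)))
    exact_mod_cast b5
  have a3 : ((N : ℝ) + 2) * ((N + 1).choose (j + 1) : ℝ)
      = ((N + 2).choose (j + 2) : ℝ) * (j + 2) := by
    exact_mod_cast Nat.add_one_mul_choose_eq (N + 1) (j + 1)
  have a4 : (0 : ℝ) < ((N + 2).choose (j + 2) : ℝ) := by exact_mod_cast Nat.choose_pos hkn
  refine le_of_mul_le_mul_left ?_ a4
  push_cast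
  have a5 := mul_le_mul_of_nonneg_left a2 (by positivity : (0 : ℝ) ≤ N + 2)
  calc _ = (∑ T ∈ F, hat p f T ^ 2) * (((N + 2).choose (j + 2) : ℝ) * (j + 2)) := by ring
    _ = ((N : ℝ) + 2) * ((∑ T ∈ F, hat p f T ^ 2) * ((N + 1).choose (j + 1) : ℝ)) := by
        rw [← a3]; ring
    _ ≤ _ := a5
    _ = _ := by ring

end open_interval

end Vale.Agent.P063
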