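import Vale.Agent.P063.Hyper

/-!
The variance-influence inequality for hypergraph properties and the threshold width.
-/

namespace Vale.Agent.P063

open Finset

variable {n r : ℕ} {p : ℝ}

theorem params (hr : 2 ≤ r) {s u : ℝ} (hs : 0 < s) (hγ : 8 ≤ 4 / s) (hu : 100 ≤ u)
    (hn : u ^ 40 = n) : ∃ (m k : ℕ) (w y : ℝ), 0 ≤ w ∧ 1 ≤ w ^ 2 * k ∧ 2 ≤ k ∧ k ≤ n ∧
      2 * y * (k - 1) ≤ n - 1 ∧ ((m : ℝ) + 1) ^ ((r : ℝ) / (r - 1)) ≤ y ∧
      (r / ((m : ℝ) + 1) ^ ((r : ℝ) / (r - 1)) + 4 * n * (4 / s) ^ m * w / k) * s ^ 2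
        * Real.log n ^ ((r : ℝ) / (r - 1)) ≤ 3200 * r := by
  have hr2 : (2 : ℝ) ≤ r := by exact_mod_cast hr
  set ρ : ℝ := (r : ℝ) / (r - 1) with hρ
  have hρ0 : 0 ≤ ρ := div_nonneg (by linarith) (by linarith)
  have hρ2 : ρ ≤ 2 := by rw [hρ, div_le_iff₀ (by linarith)]; linarith
  have hu0 : 0 < u := by linarith
  have hu1 : 1 ≤ u := by linarith
  set l := Real.log (4 / s) with hl
  have hl1 : 1 ≤ l := by
    rw [hl, Real.le_log_iff_exp_le (by linarith)]
    have := Real.exp_one_lt_d9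
    linarith
  have hsl : s * l ≤ 4 := by
    have := Real.log_le_self (by linarith : 0 ≤ 4 / s)
    calc s * l ≤ s * (4 / s) := mul_le_mul_of_nonneg_left this hs.le
      _ = 4 := by field_simp
  set L := Real.log n with hL
  have hL4 : L = 40 * Real.log u := by rw [hL, ← hn, Real.log_pow]; norm_num
  have hlu0 : 0 ≤ Real.log u := Real.log_nonneg hu1
  have hlu : Real.log u ≤ u := Real.log_le_self hu0.le
  have hL0 : 0 ≤ L := by linarith
  set m := ⌊L / (10 * l)⌋₊ with hm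
  have m1 : (m : ℝ) * (10 * l) ≤ L := by
    rw [← le_div_iff₀ (by linarith)]
    exact Nat.floor_le (div_nonneg hL0 (by linarith))
  have m2 : L ≤ (10 * l) * (m + 1) := by
    rw [← div_le_iff₀' (by linarith)]
    exact (Nat.lt_floor_add_one _).le
  have hm0 : (0 : ℝ) ≤ m := Nat.cast_nonneg m
  have m3 : (m : ℝ) + 1 ≤ 41 * u := by nlinarith
  have m4 : (4 / s) ^ m ≤ u ^ 4 := by
    rw [← Real.log_le_log_iff (by positivity) (by positivity), Real.log_pow, Real.log_pow, ← hl]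
    push_cast
    linarith
  set M := ((m : ℝ) + 1) ^ ρ with hM
  have hM0 : 0 < M := by positivity
  have m5 : M ≤ (41 * u) ^ 2 := by
    refine (Real.rpow_le_rpow_of_exponent_le (by linarith) hρ2).trans ?_
    rw [Real.rpow_two]
    exact pow_le_pow_left₀ (by linarith) m3 2
  have m6 : L ^ ρ ≤ (10 * l) ^ 2 * M := by
    refine (Real.rpow_le_rpow hL0 m2 hρ0).trans ?_
    rw [Real.mul_rpow (by linarith) (by linarith)]
    refine mul_le_mul_of_nonneg_right ?_ hM0.le
    rw [← Real.rpow_two]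
    exact Real.rpow_le_rpow_of_exponent_le (by linarith) hρ2
  set k := ⌈u ^ 36⌉₊ with hk
  have k1 : u ^ 36 ≤ k := Nat.le_ceil _
  have k2 : (k : ℝ) < u ^ 36 + 1 := Nat.ceil_lt_add_one (by positivity)
  have u36 : u ≤ u ^ 36 := le_self_pow₀ hu1 (by norm_num)
  have u2 : 10000 ≤ u ^ 2 := by nlinarith
  have u38 : 1 ≤ u ^ 38 := one_le_pow₀ hu1
  have u36' : 1 ≤ u ^ 36 := one_le_pow₀ hu1
  have k3 : 2 * (41 * u) ^ 2 * (k - 1) ≤ n - 1 := by
    have a1 : 2 * (41 * u) ^ 2 * (k - 1) ≤ 2 * (41 * u) ^ 2 * u ^ 36 :=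
      mul_le_mul_of_nonneg_left (by linarith) (by positivity)
    have a2 : 10000 * u ^ 38 ≤ u ^ 2 * u ^ 38 := mul_le_mul_of_nonneg_right u2 (by positivity)
    have a3 : u ^ 2 * u ^ 38 = n := by rw [← hn]; ring
    have a4 : 2 * (41 * u) ^ 2 * u ^ 36 = 3362 * u ^ 38 := by ring
    linarith
  have k4 : (2 : ℝ) ≤ k := by linarith
  refine ⟨m, k, (u ^ 18)⁻¹, (41 * u) ^ 2, by positivity, ?_, by exact_mod_cast k4, ?_, k3, m5, ?_⟩
  · rw [inv_pow, ← div_eq_inv_mul, le_div_iff₀ (by positivity), one_mul, ← pow_mul]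
    exact k1
  · have : (k : ℝ) ≤ n := by nlinarith
    exact_mod_cast this
  · have a1 : 4 * n * (4 / s) ^ m * (u ^ 18)⁻¹ / k ≤ r / M := by
      have b1 : 4 * n * (4 / s) ^ m * (u ^ 18)⁻¹ / k ≤ 4 * n * u ^ 4 * (u ^ 18)⁻¹ / u ^ 36 := by
        gcongr
      have b2 : 4 * n * u ^ 4 * (u ^ 18)⁻¹ / u ^ 36 = 4 / u ^ 10 := by
        rw [← hn]; field_simp
      have b3 : 4 / u ^ 10 ≤ r / M := by
        rw [div_le_div_iff₀ (by positivity) hM0]
        have c1 : u ^ 2 ≤ u ^ 8 := pow_le_pow_right₀ hu1 (by norm_num)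
        have c2 : 10000 * u ^ 2 ≤ u ^ 8 * u ^ 2 :=
          mul_le_mul_of_nonneg_right (by linarith) (by positivity)
        have c3 : 2 * u ^ 10 ≤ r * u ^ 10 := mul_le_mul_of_nonneg_right hr2 (by positivity)
        have c4 : u ^ 8 * u ^ 2 = u ^ 10 := by ring
        have c5 : (41 * u) ^ 2 = 1681 * u ^ 2 := by ring
        linarith
      linarith
    have a2 : (r / M + 4 * n * (4 / s) ^ m * (u ^ 18)⁻¹ / k) * s ^ 2 * L ^ ρ
        ≤ (r / M + r / M) * s ^ 2 * ((10 * l) ^ 2 * M) := by gcongr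
    refine a2.trans ?_
    have a3 : (r / M + r / M) * s ^ 2 * ((10 * l) ^ 2 * M) = 200 * r * (s * l) ^ 2 := by
      field_simp
      ring
    have a4 : (s * l) ^ 2 ≤ 4 ^ 2 := pow_le_pow_left₀ (by positivity) hsl 2
    rw [a3]
    nlinarith

section open_interval

variable (h0 : 0 < p) (h1 : p < 1)
include h0 h1

theorem var_eq {ι : Type*} [Fintype ι] [DecidableEq ι] (f : (ι → Bool) → ℝ) :
    Ex p (fun x => f x ^ 2) - Ex p f ^ 2 = ∑ T ∈ univ.erase ∅, hat p f T ^ 2 := by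
  rw [parseval h0 h1, ← add_sum_erase _ _ (mem_univ ∅), hat_empty]
  ring

theorem energy_le {ι : Type*} [Fintype ι] [DecidableEq ι] (f : (ι → Bool) → ℝ)
    (hB : ∀ e x, dlt e f x ^ 2 ≤ |dlt e f x|) :
    ∑ T : Finset ι, T.card * hat p f T ^ 2 ≤ sg p ^ 2 * ∑ e, Ex p (fun x => |dlt e f x|) := by
  rw [← energy h0 h1]
  exact mul_le_mul_of_nonneg_left (sum_le_sum fun e _ => Ex_mono h0.le h1.le (hB e)) (sq_nonneg _)

theorem poincare {ι : Type*} [Fintype ι] [DecidableEq ι] (f : (ι → Bool) → ℝ)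
    (hB : ∀ e x, dlt e f x ^ 2 ≤ |dlt e f x|) :
    Ex p (fun x => f x ^ 2) - Ex p f ^ 2 ≤ ∑ e, Ex p (fun x => |dlt e f x|) := by
  rw [var_eq h0 h1]
  have a1 : ∑ T ∈ univ.erase (∅ : Finset ι), hat p f T ^ 2
      ≤ ∑ T : Finset ι, T.card * hat p f T ^ 2 := by
    refine le_trans (sum_le_sum fun T hT => ?_) (sum_le_sum_of_subset_of_nonneg (subset_univ _)
      fun T _ _ => by positivity)
    have : (1 : ℝ) ≤ T.card := by
      exact_mod_cast card_pos.mpr (nonempty_iff_ne_empty.mpr (ne_of_mem_erase hT))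
    exact le_mul_of_one_le_left (sq_nonneg _) this
  refine a1.trans ((energy_le h0 h1 f hB).trans (mul_le_of_le_one_left
    (sum_nonneg fun e _ => Ex_nonneg h0.le h1.le fun x => abs_nonneg _) ?_))
  rw [sg_sq h0 h1]
  nlinarith

theorem split_bound (hr : 2 ≤ r) (f : Hyp n r → ℝ) (hf : ∀ x, f x ^ 2 ≤ 1)
    (hinv : ∀ π x, f (fun e => x (relabel π e)) = f x)
    (hB : ∀ e x, dlt e f x ^ 2 ≤ |dlt e f x|) (m k : ℕ) {w y : ℝ}
    (hw0 : 0 ≤ w) (hw : 1 ≤ w ^ 2 * k) (hk : 2 ≤ k) (hkn : k ≤ n)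
    (hy : 2 * y * (k - 1) ≤ n - 1) (hmy : ((m : ℝ) + 1) ^ ((r : ℝ) / (r - 1)) ≤ y) :
    Ex p (fun x => f x ^ 2) - Ex p f ^ 2
      ≤ (r / ((m : ℝ) + 1) ^ ((r : ℝ) / (r - 1)) + 4 * n * (4 / sg p) ^ m * w / k) * sg p ^ 2
        * ∑ e, Ex p (fun x => |dlt e f x|) := by
  set M := ((m : ℝ) + 1) ^ ((r : ℝ) / (r - 1)) with hM
  have hM0 : 0 < M := by positivity
  set I := ∑ e, Ex p (fun x => |dlt e f x|) with hI
  rw [var_eq h0 h1, ← sum_filter_add_sum_filter_not _ (fun T : Finset (Edge n r) =>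
    (r : ℝ) * T.card < M)]
  have a1 := low_bound h0 h1 f hf hinv m k hw0 hw hk hkn hy
    ((univ.erase ∅).filter fun T : Finset (Edge n r) => (r : ℝ) * T.card < M) (fun T hT => by
      rw [mem_filter] at hT
      refine ⟨?_, min_degree hr T (ne_of_mem_erase hT.1) m hT.2⟩
      have : ((verts T).card : ℝ) ≤ r * T.card := by exact_mod_cast card_verts_le T
      linarith [hT.2])
  have hk0 : (0 : ℝ) < k := by exact_mod_cast (by omega : 0 < k)
  rw [← le_div_iff₀ hk0, ← hI] at a1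
  have a2 : ∑ T ∈ (univ.erase ∅).filter (fun T : Finset (Edge n r) => ¬ (r : ℝ) * T.card < M),
      hat p f T ^ 2 ≤ r / M * (sg p ^ 2 * I) := by
    refine le_trans ?_ (mul_le_mul_of_nonneg_left (energy_le h0 h1 f hB) (by positivity))
    rw [mul_sum]
    refine le_trans (sum_le_sum fun T hT => ?_) (sum_le_sum_of_subset_of_nonneg (subset_univ _)
      fun T _ _ => by positivity)
    have b1 : M ≤ r * T.card := not_lt.mp (mem_filter.mp hT).2
    rw [← mul_assoc]
    refine le_mul_of_one_le_left (sq_nonneg _) ?_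
    rw [div_mul_eq_mul_div, le_div_iff₀ hM0, one_mul]
    exact b1
  refine (add_le_add a1 a2).trans (le_of_eq ?_)
  ring

theorem var_bound (hr : 2 ≤ r) (hn : r ≤ n) (f : Hyp n r → ℝ) (hf : ∀ x, f x ^ 2 ≤ 1)
    (hinv : ∀ π x, f (fun e => x (relabel π e)) = f x)
    (hB : ∀ e x, dlt e f x ^ 2 ≤ |dlt e f x|) :
    (Ex p (fun x => f x ^ 2) - Ex p f ^ 2) * Real.log n ^ ((r : ℝ) / (r - 1))
      ≤ (3200 * r + 4001 ^ 2) * ∑ e, Ex p (fun x => |dlt e f x|) := by
  have hr2 : (2 : ℝ) ≤ r := by exact_mod_cast hr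
  have hn2 : (2 : ℝ) ≤ n := by exact_mod_cast hr.trans hn
  have hI : 0 ≤ ∑ e, Ex p (fun x => |dlt e f x|) :=
    sum_nonneg fun e _ => Ex_nonneg h0.le h1.le fun x => abs_nonneg _
  have hL0 : 0 ≤ Real.log n := Real.log_nonneg (by linarith)
  have hLρ : 0 ≤ Real.log n ^ ((r : ℝ) / (r - 1)) := Real.rpow_nonneg hL0 _
  set u : ℝ := (n : ℝ) ^ (((40 : ℕ) : ℝ)⁻¹) with hu
  have hun : u ^ 40 = n := Real.rpow_inv_natCast_pow (by linarith) (by norm_num)
  have hu0 : 0 ≤ u := by positivity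
  rcases le_total 100 u with h | h
  · obtain ⟨m, k, w, y, b1, b2, b3, b4, b5, b6, b7⟩ :=
      params hr (sg_pos h0 h1) (four_le_gamma h0 h1) h hun
    have a1 := mul_le_mul_of_nonneg_right (split_bound h0 h1 hr f hf hinv hB m k b1 b2 b3 b4 b5 b6)
      hLρ
    have a2 := mul_le_mul_of_nonneg_right b7 hI
    refine a1.trans (le_trans (le_of_eq (by ring)) (a2.trans ?_))
    exact mul_le_mul_of_nonneg_right (by linarith [sq_nonneg (4001 : ℝ)]) hI
  · have a1 : Real.log n ≤ 4000 := by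
      rw [← hun, Real.log_pow]
      have := Real.log_le_self hu0
      push_cast
      linarith
    have a2 : Real.log n ^ ((r : ℝ) / (r - 1)) ≤ 4001 ^ 2 := by
      refine (Real.rpow_le_rpow hL0 (by linarith : Real.log n ≤ 4001)
        (div_nonneg (by linarith) (by linarith))).trans ?_
      rw [← Real.rpow_two]
      refine Real.rpow_le_rpow_of_exponent_le (by norm_num) ?_
      rw [div_le_iff₀ (by linarith)]
      linarith
    refine (mul_le_mul (poincare h0 h1 f hB) a2 hLρ hI).trans ?_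
    rw [mul_comm]
    exact mul_le_mul_of_nonneg_right (by linarith) hI

theorem russo {ι : Type*} [Fintype ι] [DecidableEq ι] (f : (ι → Bool) → ℝ) :
    HasDerivAt (fun q => Ex q f) (∑ e, Ex p (dlt e f)) p := by
  have hq : 1 - p ≠ 0 := by linarith
  have a1 : ∀ b : Bool, HasDerivAt (fun q => w1 q b) (if b then 1 else -1) p := by
    intro b
    cases b
    · simpa [w1] using (hasDerivAt_id p).const_sub 1
    · simpa [w1] using hasDerivAt_id' p
  have a2 : ∀ x : ι → Bool, HasDerivAt (fun q => wt q x * f x)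
      ((∑ e, (∏ i ∈ univ.erase e, w1 p (x i)) • (if x e then (1 : ℝ) else -1)) * f x) p :=
    fun x => (HasDerivAt.fun_finsetProd (fun i _ => a1 (x i))).mul_const _
  have a3 := HasDerivAt.fun_sum (u := univ) fun x _ => a2 x
  refine HasDerivAt.congr_deriv a3 (Eq.symm ?_)
  simp only [sum_mul]
  rw [sum_comm]
  refine sum_congr rfl fun e _ => ?_
  have a4 : ∑ x : ι → Bool, (∏ i ∈ univ.erase e, w1 p (x i)) • (if x e then (1 : ℝ) else -1) * f x
      = Ex p (fun x => (if x e then (1 : ℝ) else -1) / w1 p (x e) * f x) := by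
    refine sum_congr rfl fun x _ => ?_
    have : w1 p (x e) ≠ 0 := by cases x e <;> simp [w1, hq, h0.ne']
    rw [wt, ← mul_prod_erase _ _ (mem_univ e), smul_eq_mul]
    field_simp
  rw [a4, Ex_resample e (fun x => (if x e then (1 : ℝ) else -1) / w1 p (x e) * f x)]
  congr 1
  funext x
  simp only [dlt, Function.update_self, w1, if_true, Bool.false_eq_true, if_false]
  field_simp
  ring

end open_interval

theorem continuous_Ex {ι : Type*} [Fintype ι] [DecidableEq ι] (f : (ι → Bool) → ℝ) :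
    Continuous fun q => Ex q f := by
  refine continuous_finset_sum _ fun x _ => Continuous.mul_const
    (continuous_finset_prod _ fun i _ => ?_) _
  cases x i <;> simp only [w1, if_true, Bool.false_eq_true, if_false] <;> fun_prop

theorem Ex_zero {ι : Type*} [Fintype ι] [DecidableEq ι] (f : (ι → Bool) → ℝ) :
    Ex 0 f = f (fun _ => false) := by
  rw [Ex, sum_eq_single (fun _ => false)]
  · simp [wt, w1]
  · intro x _ hx
    obtain ⟨i, hi⟩ := Function.ne_iff.mp hx
    rw [wt, prod_eq_zero (mem_univ i) (by simpa [w1] using hi), zero_mul]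
  · simp

theorem Ex_one {ι : Type*} [Fintype ι] [DecidableEq ι] (f : (ι → Bool) → ℝ) :
    Ex 1 f = f (fun _ => true) := by
  rw [Ex, sum_eq_single (fun _ => true)]
  · simp [wt, w1]
  · intro x _ hx
    obtain ⟨i, hi⟩ := Function.ne_iff.mp hx
    rw [wt, prod_eq_zero (mem_univ i) (by simpa [w1] using hi), zero_mul]
  · simp

theorem width_of_deriv {μ μ' : ℝ → ℝ} (hc : Continuous μ) (hμ0 : μ 0 = 0) (hμ1 : μ 1 = 1)
    (hd : ∀ q, 0 < q → q < 1 → HasDerivAt μ (μ' q) q) (hd0 : ∀ q, 0 < q → q < 1 → 0 ≤ μ' q)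
    {Λ C : ℝ} (hΛ : 0 < Λ) (hC : 0 < C)
    (hv : ∀ q, 0 < q → q < 1 → μ q * (1 - μ q) * Λ ≤ C * μ' q) {ε : ℝ} (hε : 0 < ε)
    (hε2 : ε < 1 / 2) :
    sInf {q | q ∈ Set.Icc (0 : ℝ) 1 ∧ 1 - ε ≤ μ q} - sInf {q | q ∈ Set.Icc (0 : ℝ) 1 ∧ ε ≤ μ q}
      ≤ 4 * C * Real.log (1 / (2 * ε)) / Λ := by
  have hmem : ∀ a, a ≤ 1 → sInf {q | q ∈ Set.Icc (0 : ℝ) 1 ∧ a ≤ μ q}
      ∈ {q | q ∈ Set.Icc (0 : ℝ) 1 ∧ a ≤ μ q} := fun a ha =>
    (isClosed_Icc.inter (isClosed_le continuous_const hc)).csInf_mem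
      ⟨1, ⟨zero_le_one, le_rfl⟩, ha.trans hμ1.ge⟩ ⟨0, fun q hq => hq.1.1⟩
  set s := sInf {q | q ∈ Set.Icc (0 : ℝ) 1 ∧ ε ≤ μ q} with hs
  set t := sInf {q | q ∈ Set.Icc (0 : ℝ) 1 ∧ 1 - ε ≤ μ q} with ht
  obtain ⟨hsI, hs1⟩ := hmem ε (by linarith)
  obtain ⟨htI, -⟩ := hmem (1 - ε) (by linarith)
  rw [← hs] at hsI hs1
  rw [← ht] at htI
  have hlog : 0 ≤ Real.log (1 / (2 * ε)) :=
    Real.log_nonneg (by rw [le_div_iff₀ (by linarith)]; linarith)
  rcases le_or_gt t s with hts | hts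
  · exact le_trans (by linarith) (by positivity : 0 ≤ 4 * C * Real.log (1 / (2 * ε)) / Λ)
  have hmono : MonotoneOn μ (Set.Icc 0 1) := by
    refine monotoneOn_of_deriv_nonneg (convex_Icc 0 1) hc.continuousOn ?_ ?_
    · intro q hq
      rw [interior_Icc] at hq
      exact (hd q hq.1 hq.2).differentiableAt.differentiableWithinAt
    · intro q hq
      rw [interior_Icc] at hq
      rw [(hd q hq.1 hq.2).deriv]
      exact hd0 q hq.1 hq.2
  have ht1 : μ t ≤ 1 - ε := by
    by_contra hcon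
    push Not at hcon
    obtain ⟨q, hq, hq2⟩ := intermediate_value_Icc htI.1 hc.continuousOn
      (show 1 - ε ∈ Set.Icc (μ 0) (μ t) from ⟨by rw [hμ0]; linarith, hcon.le⟩)
    have : t ≤ q := csInf_le ⟨0, fun q hq => hq.1.1⟩ ⟨⟨hq.1, hq.2.trans htI.2⟩, hq2.ge⟩
    rw [le_antisymm hq.2 this] at hq2
    linarith
  have hin : ∀ q ∈ Set.Icc s t, ε ≤ μ q ∧ μ q ≤ 1 - ε := by
    intro q hq
    have hqI : q ∈ Set.Icc (0 : ℝ) 1 := ⟨hsI.1.trans hq.1, hq.2.trans htI.2⟩
    exact ⟨hs1.trans (hmono hsI hqI hq.1), (hmono hqI htI hq.2).trans ht1⟩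
  obtain ⟨c, hc1, hc2⟩ := exists_hasDerivAt_eq_slope
    (fun q => Real.log (μ q) - Real.log (1 - μ q)) (fun q => μ' q / μ q - -μ' q / (1 - μ q)) hts
    (by
      refine (hc.continuousOn.log fun q hq => ?_).sub
        ((continuous_const.sub hc).continuousOn.log fun q hq => ?_)
      · linarith [(hin q hq).1]
      · change 1 - μ q ≠ 0
        linarith [(hin q hq).2])
    (by
      intro q hq
      have b := hin q ⟨hq.1.le, hq.2.le⟩
      have d := hd q (hsI.1.trans_lt hq.1) (hq.2.trans_le htI.2)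
      exact (d.log (by linarith [b.1])).sub ((d.const_sub 1).log (by linarith [b.2])))
  have b := hin c ⟨hc1.1.le, hc1.2.le⟩
  have v := hv c (hsI.1.trans_lt hc1.1) (hc1.2.trans_le htI.2)
  have p1 : 0 < μ c := by linarith [b.1]
  have p2 : 0 < 1 - μ c := by linarith [b.2]
  have a1 : Λ ≤ C * (μ' c / μ c - -μ' c / (1 - μ c)) := by
    have : C * (μ' c / μ c - -μ' c / (1 - μ c)) = C * μ' c / (μ c * (1 - μ c)) := by
      field_simp
      ring
    rw [this, le_div_iff₀ (mul_pos p1 p2)]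
    linarith
  have bs := hin s ⟨le_rfl, hts.le⟩
  have bt := hin t ⟨hts.le, le_rfl⟩
  have l1 : Real.log (μ t) ≤ Real.log (1 - ε) := Real.log_le_log (by linarith [bt.1]) bt.2
  have l2 : Real.log ε ≤ Real.log (1 - μ t) := Real.log_le_log hε (by linarith [bt.2])
  have l3 : Real.log ε ≤ Real.log (μ s) := Real.log_le_log hε bs.1
  have l4 : Real.log (1 - μ s) ≤ Real.log (1 - ε) :=
    Real.log_le_log (by linarith [bs.2]) (by linarith [bs.1])
  have l5 : Real.log (1 - ε) - Real.log ε ≤ 2 * Real.log (1 / (2 * ε)) := by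
    rw [← Real.log_div (by linarith) hε.ne']
    have : 2 * Real.log (1 / (2 * ε)) = Real.log ((1 / (2 * ε)) ^ 2) := by
      rw [Real.log_pow]; norm_num
    rw [this]
    refine Real.log_le_log (div_pos (by linarith) hε) ?_
    rw [div_pow, div_le_div_iff₀ hε (by positivity)]
    nlinarith [mul_nonneg hε.le (sq_nonneg (1 - 2 * ε))]
  rw [hc2, ← mul_div_assoc, le_div_iff₀ (by linarith)] at a1
  rw [le_div_iff₀ hΛ]
  have a2 := mul_le_mul_of_nonneg_left (show Real.log (μ t) - Real.log (1 - μ t)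
    - (Real.log (μ s) - Real.log (1 - μ s)) ≤ 4 * Real.log (1 / (2 * ε)) by linarith) hC.le
  linarith

/-- Indicator function of a family. -/
noncomputable def ind (P : Set (Hyp n r)) (x : Hyp n r) : ℝ := P.indicator (fun _ => 1) x

theorem mu_eq (P : Set (Hyp n r)) : mu p P = Ex p (ind P) := by
  refine sum_congr rfl fun x _ => ?_
  by_cases hx : x ∈ P <;> simp [ind, hx, wt, w1]

theorem influence_eq (P : Set (Hyp n r)) :
    influence p P = ∑ e, Ex p (fun x => |dlt e (ind P) x|) := by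
  refine sum_congr rfl fun e _ => ?_
  rw [mu_eq]
  congr 1
  funext x
  by_cases a : Function.update x e true ∈ P <;> by_cases b : Function.update x e false ∈ P <;>
    simp [ind, dlt, a, b]

theorem influence_bound (hr : 2 ≤ r) (hn : r ≤ n) (P : Set (Hyp n r)) (hP : Invariant P)
    (h0 : 0 < p) (h1 : p < 1) :
    mu p P * (1 - mu p P) * Real.log n ^ ((r : ℝ) / (r - 1))
      ≤ (3200 * r + 4001 ^ 2) * influence p P := by
  have a := var_bound h0 h1 hr hn (ind P) (fun x => by by_cases hx : x ∈ P <;> simp [ind, hx])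
    (fun π x => by
      by_cases hx : x ∈ P
      · simp [ind, hx, (hP π x).mpr hx]
      · simp [ind, hx, (hP π x).not.mpr hx])
    (fun e x => by
      by_cases a : Function.update x e true ∈ P <;> by_cases b : Function.update x e false ∈ P <;>
        simp [ind, dlt, a, b])
  have b : (fun x => ind P x ^ 2) = ind P := by
    funext x
    by_cases hx : x ∈ P <;> simp [ind, hx]
  rw [b, ← mu_eq, ← influence_eq] at a
  refine le_trans (le_of_eq ?_) a
  ring

theorem width_bound (hr : 2 ≤ r) (hn : r ≤ n) (P : Set (Hyp n r)) (hP : Invariant P)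
    (hI : Increasing P) (hne : P ≠ ∅) (hnu : P ≠ Set.univ) {ε : ℝ} (hε : 0 < ε)
    (hε2 : ε < 1 / 2) :
    width ε P ≤ 4 * (3200 * r + 4001 ^ 2) * Real.log (1 / (2 * ε))
      / Real.log n ^ ((r : ℝ) / (r - 1)) := by
  have hn2 : (2 : ℝ) ≤ n := by exact_mod_cast hr.trans hn
  have e1 : (fun q => mu q P) = fun q => Ex q (ind P) := funext fun q => mu_eq P
  refine width_of_deriv (μ := fun q => mu q P) (μ' := fun q => influence q P) ?_ ?_ ?_ ?_ ?_
    (Real.rpow_pos_of_pos (Real.log_pos (by linarith)) _) (by positivity)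
    (fun q h0 h1 => influence_bound hr hn P hP h0 h1) hε hε2
  · rw [e1]; exact continuous_Ex _
  · have : (fun _ => false) ∉ P := fun h =>
      hnu (Set.eq_univ_of_forall fun y => hI _ y (by simp) h)
    simp [mu_eq, Ex_zero, ind, this]
  · obtain ⟨x, hx⟩ := Set.nonempty_iff_ne_empty.mpr hne
    have : (fun _ => true) ∈ P := hI x _ (by simp) hx
    simp [mu_eq, Ex_one, ind, this]
  · intro q h0 h1
    rw [e1, influence_eq]
    convert russo h0 h1 (ind P) with e _ x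
    have : Function.update x e false ∈ P → Function.update x e true ∈ P := by
      refine hI _ _ fun i hi => ?_
      by_cases h : i = e
      · simp [h]
      · simpa [h] using hi
    by_cases a : Function.update x e true ∈ P <;> by_cases b : Function.update x e false ∈ P
    · simp [ind, dlt, a, b]
    · simp [ind, dlt, a, b]
    · exact absurd (this b) a
    · simp [ind, dlt, a, b]
  · intro q h0 h1
    rw [influence_eq]
    exact sum_nonneg fun e _ => Ex_nonneg h0.le h1.le fun x => abs_nonneg _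

end Vale.Agent.P063
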