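import Vale.Agent.P063.Fourier

/-!
Low-degree Fourier weight on a small block of coordinates, and symmetric restrictions.
-/

namespace Vale.Agent.P063

open Finset

variable {ι : Type*} [Fintype ι] [DecidableEq ι] {p : ℝ}

section open_interval

variable (h0 : 0 < p) (h1 : p < 1)
include h0 h1

theorem star_bound (g : (ι → Bool) → ℝ) (K : Finset ι) (m : ℕ) {w : ℝ} (hw : 0 ≤ w)
    (hW : ∑ U ∈ K.powerset, (if U ≠ ∅ then hat p g U ^ 2 else 0) ≤ w ^ 2) :
    ∑ U ∈ K.powerset, (if U ≠ ∅ ∧ U.card ≤ m then hat p g U ^ 2 else 0)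
      ≤ (4 / sg p) ^ m * w * ∑ e ∈ K, 2 * sg p ^ 2 * Ex p (fun x => |dlt e g x|) := by
  have hs := sg_pos h0 h1
  have hγ : (1 : ℝ) ≤ 4 / sg p := le_trans (by norm_num) (four_le_gamma h0 h1)
  set c : Finset ι → ℝ := fun U => if U ≠ ∅ ∧ U.card ≤ m then hat p g U else 0 with hc
  set d : Finset ι → ℝ := fun U => if U ≠ ∅ then hat p g U else 0 with hd
  set L : (ι → Bool) → ℝ := fun x => ∑ U ∈ K.powerset, c U * chi p U x with hL
  set G : (ι → Bool) → ℝ := fun x => ∑ U ∈ K.powerset, d U * chi p U x with hG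
  set S := ∑ U ∈ K.powerset, (if U ≠ ∅ ∧ U.card ≤ m then hat p g U ^ 2 else 0) with hS
  set Y := ∑ e ∈ K, 2 * sg p ^ 2 * Ex p (fun x => |dlt e g x|) with hY
  have hS0 : 0 ≤ S := sum_nonneg fun U _ => by split_ifs <;> positivity
  have hY0 : 0 ≤ Y := sum_nonneg fun e _ =>
    mul_nonneg (by positivity) (Ex_nonneg h0.le h1.le fun x => abs_nonneg _)
  have e1 : Ex p (fun x => L x * G x) = S := by
    refine (Ex_lin_mul h0 h1 K.powerset id (Set.injOn_id _) c d).trans ?_
    refine sum_congr rfl fun U _ => ?_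
    simp only [hc, hd]
    split_ifs with a b
    · ring
    · exact absurd a.1 b
    · ring
    · ring
  have e2 : Ex p (fun x => G x ^ 2) ≤ w ^ 2 := by
    refine le_trans (le_of_eq ?_) hW
    simp only [sq]
    refine (Ex_lin_mul h0 h1 K.powerset id (Set.injOn_id _) d d).trans ?_
    refine sum_congr rfl fun U _ => ?_
    simp only [hd]
    split_ifs <;> ring
  have e3 : Ex p (fun x => L x ^ 4) ≤ ((4 / sg p) ^ m * S) ^ 2 := by
    refine (hyper h0 h1 K c).trans ?_
    refine pow_le_pow_left₀ (sum_nonneg fun U _ => by positivity) ?_ 2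
    rw [hS, mul_sum]
    refine sum_le_sum fun U _ => ?_
    simp only [hc]
    split_ifs with a
    · exact mul_le_mul_of_nonneg_right (pow_le_pow_right₀ hγ a.2) (sq_nonneg _)
    · simp
  have e4 : Ex p (fun x => |G x|) ≤ Y := by
    refine le_trans (le_of_eq ?_) (l1_poincare h0 h1 K g)
    congr 1
    funext x
    congr 1
    rw [cond_expand h0 h1, hG]
    have hm : (∅ : Finset ι) ∈ K.powerset := empty_mem_powerset K
    simp only
    rw [← add_sum_erase _ _ hm, ← add_sum_erase _ _ hm, hat_empty]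
    have : ∑ U ∈ K.powerset.erase ∅, d U * chi p U x
        = ∑ U ∈ K.powerset.erase ∅, hat p g U * chi p U x :=
      sum_congr rfl fun U hU => by simp only [hd]; rw [if_pos (ne_of_mem_erase hU)]
    rw [this]
    simp [hd, chi]
  have c1 := Ex_cs h0.le h1.le (r := fun x => L x * G x) (f := fun x => L x ^ 2 * |G x|)
    (g := fun x => |G x|) (fun x => by positivity) (fun x => abs_nonneg _)
    (fun x => le_of_eq (by rw [mul_assoc, abs_mul_abs_self]; ring))
  have c2 := Ex_cs h0.le h1.le (r := fun x => L x ^ 2 * |G x|) (f := fun x => L x ^ 4)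
    (g := fun x => G x ^ 2) (fun x => by positivity) (fun x => sq_nonneg _)
    (fun x => le_of_eq (by rw [mul_pow, sq_abs]; ring))
  set X := Ex p (fun x => L x ^ 2 * |G x|) with hX
  have hX0 : 0 ≤ X := Ex_nonneg h0.le h1.le fun x => by positivity
  have c3 : X ≤ (4 / sg p) ^ m * S * w := by
    refine (abs_le_of_sq_le_sq' (c2.trans ?_) (by positivity)).2
    rw [mul_pow _ w]
    exact mul_le_mul e3 e2 (Ex_nonneg h0.le h1.le fun x => sq_nonneg _) (sq_nonneg _)
  rw [e1] at c1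
  have c4 : S ^ 2 ≤ (4 / sg p) ^ m * S * w * Y :=
    c1.trans (mul_le_mul c3 e4 (Ex_nonneg h0.le h1.le fun x => abs_nonneg _) (by positivity))
  rcases hS0.eq_or_lt with h | h
  · rw [← h]; positivity
  · refine le_of_mul_le_mul_left ?_ h
    calc S * S = S ^ 2 := by ring
      _ ≤ _ := c4
      _ = _ := by ring

theorem sym_weight {α : Type*} (g : (ι → Bool) → ℝ) (hg : ∀ x, g x ^ 2 ≤ 1) (A : Finset α)
    (St : α → Finset ι) (hdisj : ∀ a ∈ A, ∀ a' ∈ A, a ≠ a' → Disjoint (St a) (St a'))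
    (hsym : ∀ a ∈ A, ∀ a' ∈ A, ∃ τ : ι ≃ ι, (∀ y, g (y ∘ τ) = g y) ∧
      (St a).map τ.toEmbedding = St a') {w : ℝ} (hw : 1 ≤ w ^ 2 * A.card) {a : α} (ha : a ∈ A) :
    ∑ U ∈ (St a).powerset, (if U ≠ ∅ then hat p g U ^ 2 else 0) ≤ w ^ 2 := by
  classical
  set W : α → ℝ := fun a => ∑ U : Finset ι, if U ⊆ St a ∧ U ≠ ∅ then hat p g U ^ 2 else 0 with hW
  have e0 : ∑ U ∈ (St a).powerset, (if U ≠ ∅ then hat p g U ^ 2 else 0) = W a := by
    have e2 : (St a).powerset = univ.filter (fun T : Finset ι => T ⊆ St a) := by ext T; simp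
    rw [e2, sum_filter]
    refine sum_congr rfl fun U _ => ?_
    by_cases h : U ⊆ St a <;> simp [h]
  have e1 : ∀ a' ∈ A, W a' = W a := by
    intro a' ha'
    obtain ⟨τ, hτ, hm⟩ := hsym a ha a' ha'
    simp only [hW]
    rw [← τ.finsetCongr.sum_comp]
    refine sum_congr rfl fun U _ => ?_
    simp only [Equiv.finsetCongr_apply, ← hm, map_subset_map, ne_eq, map_eq_empty,
      hat_perm τ hτ]
  have e2 : ∑ a' ∈ A, W a' ≤ 1 := by
    simp only [hW]
    rw [sum_comm]
    calc _ ≤ ∑ U : Finset ι, hat p g U ^ 2 := by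
          refine sum_le_sum fun U _ => ?_
          rw [← sum_filter, sum_const, nsmul_eq_mul]
          refine mul_le_of_le_one_left (sq_nonneg _) ?_
          have : (A.filter fun a => U ⊆ St a ∧ U ≠ ∅).card ≤ 1 := by
            refine card_le_one.mpr fun b hb b' hb' => ?_
            rw [mem_filter] at hb hb'
            by_contra hne
            obtain ⟨i, hi⟩ := nonempty_iff_ne_empty.mpr hb.2.2
            exact disjoint_left.mp (hdisj b hb.1 b' hb'.1 hne) (hb.2.1 hi) (hb'.2.1 hi)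
          exact_mod_cast this
      _ = Ex p (fun x => g x ^ 2) := (parseval h0 h1 g).symm
      _ ≤ Ex p (fun _ => 1) := Ex_mono h0.le h1.le hg
      _ = 1 := Ex_const 1
  rw [sum_congr rfl e1, sum_const, nsmul_eq_mul] at e2
  have hA : (0 : ℝ) < A.card := by exact_mod_cast card_pos.mpr ⟨a, ha⟩
  rw [e0]
  refine le_of_mul_le_mul_left ?_ hA
  linarith

theorem restrict_bound {α : Type*} (f : (ι → Bool) → ℝ) (hf : ∀ x, f x ^ 2 ≤ 1) (R : Finset ι)
    (A : Finset α) (St : α → Finset ι)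
    (hdisj : ∀ a ∈ A, ∀ a' ∈ A, a ≠ a' → Disjoint (St a) (St a'))
    (hR : ∀ a ∈ A, ∀ e ∈ St a, e ∉ R)
    (hsym : ∀ a ∈ A, ∀ a' ∈ A, ∃ τ : ι ≃ ι, (∀ y, f (y ∘ τ) = f y) ∧ (∀ i ∈ R, τ i = i) ∧
      (St a).map τ.toEmbedding = St a') (m : ℕ) {w : ℝ} (hw0 : 0 ≤ w)
    (hw : 1 ≤ w ^ 2 * A.card) :
    ∑ a ∈ A, ∑ T : Finset ι,
        (if T \ R ⊆ St a ∧ T \ R ≠ ∅ ∧ (T \ R).card ≤ m then hat p f T ^ 2 else 0)
      ≤ (4 / sg p) ^ m * w * (2 * sg p ^ 2 * ∑ e, Ex p (fun x => |dlt e f x|)) := by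
  classical
  have hs := sg_pos h0 h1
  have key : ∀ a ∈ A, ∑ T : Finset ι,
        (if T \ R ⊆ St a ∧ T \ R ≠ ∅ ∧ (T \ R).card ≤ m then hat p f T ^ 2 else 0)
      ≤ (4 / sg p) ^ m * w * ∑ e ∈ St a, 2 * sg p ^ 2 * Ex p (fun x => |dlt e f x|) := by
    intro a ha
    have b1 : ∀ z : ι → Bool, ∑ U ∈ (St a).powerset,
        (if U ≠ ∅ ∧ U.card ≤ m then hat p (fun y => f (R.piecewise z y)) U ^ 2 else 0)
        ≤ (4 / sg p) ^ m * w * ∑ e ∈ St a, 2 * sg p ^ 2
          * Ex p (fun x => |dlt e (fun y => f (R.piecewise z y)) x|) := by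
      intro z
      refine star_bound h0 h1 _ _ m hw0 (sym_weight h0 h1 _ (fun x => hf _) A St hdisj ?_ hw ha)
      intro b hb b' hb'
      obtain ⟨τ, t1, t2, t3⟩ := hsym b hb b' hb'
      refine ⟨τ, fun y => ?_, t3⟩
      rw [← t1 (R.piecewise z y)]
      congr 1
      funext i
      by_cases hi : i ∈ R
      · simp [Finset.piecewise, hi, t2 i hi]
      · have : τ i ∉ R := fun h => hi (by rw [← τ.injective (t2 _ h)]; exact h)
        simp [Finset.piecewise, hi, this]
    have b2 := Ex_mono h0.le h1.le b1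
    rw [Ex_sum, Ex_const_mul, Ex_sum] at b2
    have b3 : ∀ e ∈ St a, Ex p (fun z => 2 * sg p ^ 2
          * Ex p (fun x => |dlt e (fun y => f (R.piecewise z y)) x|))
        = 2 * sg p ^ 2 * Ex p (fun x => |dlt e f x|) := by
      intro e he
      rw [Ex_const_mul, restrict_dlt R f (hR a ha e he)]
    rw [sum_congr rfl b3] at b2
    refine le_trans (le_of_eq ?_) b2
    have b4 : ∀ U ∈ (St a).powerset, Ex p (fun z =>
        if U ≠ ∅ ∧ U.card ≤ m then hat p (fun y => f (R.piecewise z y)) U ^ 2 else 0)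
        = ∑ T : Finset ι, if T \ R = U then
          (if T \ R ≠ ∅ ∧ (T \ R).card ≤ m then hat p f T ^ 2 else 0) else 0 := by
      intro U _
      by_cases hU : U ≠ ∅ ∧ U.card ≤ m
      · simp only [if_pos hU]
        rw [restrict_sq h0 h1, sum_filter]
        refine sum_congr rfl fun T _ => ?_
        by_cases hT : T \ R = U
        · rw [if_pos hT, if_pos hT, if_pos (hT ▸ hU)]
        · rw [if_neg hT, if_neg hT]
      · simp only [if_neg hU]
        rw [Ex_const]
        refine (sum_eq_zero fun T _ => ?_).symm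
        by_cases hT : T \ R = U
        · rw [if_pos hT, if_neg (hT ▸ hU)]
        · rw [if_neg hT]
    rw [sum_congr rfl b4, sum_comm]
    refine sum_congr rfl fun T _ => ?_
    rw [sum_ite_eq]
    by_cases hT : T \ R ⊆ St a
    · simp [hT]
    · simp [hT]
  refine (sum_le_sum key).trans ?_
  rw [← mul_sum]
  refine mul_le_mul_of_nonneg_left ?_ (by positivity)
  rw [← sum_biUnion (fun a ha a' ha' h => hdisj a ha a' ha' h), mul_sum]
  exact sum_le_sum_of_subset_of_nonneg (subset_univ _) fun e _ _ =>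
    mul_nonneg (by positivity) (Ex_nonneg h0.le h1.le fun x => abs_nonneg _)

end open_interval

end Vale.Agent.P063
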